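import Vale.Agent.P236.R2.H383.Cobar

/-! The classes `h_j` and `b_j` are cocycles and not coboundaries. -/

namespace Vale.Agent.P236.R2.H489

open MvPolynomial Finset Vale.Agent.P236.R2.H383

theorem face_C (k : ℕ) (c : ZMod 3) : face k (C c) = C c := (face k).commutes c

theorem face_zero_X (t i : ℕ) : face 0 (X (t, i)) = X (t + 1, i) := face_gt i (by omega)

theorem face_one_X (i : ℕ) : face 1 (X (0, i)) =
    ∑ j ∈ range (i + 2), xi 0 (i + 1 - j) ^ 3 ^ j * xi 1 j := face_eq 0 i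

theorem face_one_X_succ (t i : ℕ) : face 1 (X (t + 1, i)) = X (t + 2, i) := face_gt i (by omega)

/-- left inverse of the coface `0` -/
noncomputable def unsh : W →ₐ[ZMod 3] W := aeval fun v => X (v.1 - 1, v.2)

theorem unsh_X (t i : ℕ) : unsh (X (t, i)) = X (t - 1, i) := by simp [unsh]

theorem unsh_face (f : W) : unsh (face 0 f) = f := by
  refine alg_ext (unsh.comp (face 0)) (AlgHom.id (ZMod 3) W) (fun t i => ?_) f
  rw [AlgHom.comp_apply, face_zero_X, unsh_X]
  rfl

theorem face_zero_inj {f g : W} (h : face 0 f = face 0 g) : f = g := by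
  rw [← unsh_face f, ← unsh_face g, h]

theorem cob_one {w : W} (hw : w ∈ Co 1) : cob 1 w = face 0 w - face 1 w + w := by
  unfold cob
  rw [sum_range_succ, sum_range_succ, sum_range_one, face_fix (k := 2) (by omega) hw]
  ring

theorem cob_two {w : W} (hw : w ∈ Co 2) : cob 2 w = face 0 w - face 1 w + face 2 w - w := by
  unfold cob
  rw [sum_range_succ, sum_range_succ, sum_range_succ, sum_range_one,
    face_fix (k := 3) (by omega) hw]
  ring

theorem cob_frob (s : ℕ) (f : W) (j : ℕ) : cob s (f ^ 3 ^ j) = cob s f ^ 3 ^ j := by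
  induction j with
  | zero => simp
  | succ j ih => rw [pow_succ, pow_mul, cob_pow, ih, ← pow_mul]

theorem cob_one_X_zero : cob 1 (X (0, 0)) = 0 := by
  rw [cob_one (X_mem 0 (by omega)), face_zero_X, face_one_X, sum_range_succ, sum_range_one]
  simp [xi]

/-- `h_j` is a cocycle -/
theorem cob_h (j : ℕ) : cob 1 ((X (0, 0) : W) ^ 3 ^ j) = 0 := by
  rw [cob_frob, cob_one_X_zero, zero_pow (by positivity)]

theorem h_mem (j : ℕ) : ((X (0, 0) : W) ^ 3 ^ j) ∈ Co 1 := (Co 1).pow_mem (X_mem 0 (by omega)) _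

theorem b_mem (j : ℕ) : (X (0, 0) ^ 3 ^ j * X (1, 0) ^ (2 * 3 ^ j) +
    X (0, 0) ^ (2 * 3 ^ j) * X (1, 0) ^ 3 ^ j : W) ∈ Co 2 := by
  have h0 : (X (0, 0) : W) ∈ Co 2 := X_mem 0 (by omega)
  have h1 : (X (1, 0) : W) ∈ Co 2 := X_mem 0 (by omega)
  exact (Co 2).add_mem ((Co 2).mul_mem ((Co 2).pow_mem h0 _) ((Co 2).pow_mem h1 _))
    ((Co 2).mul_mem ((Co 2).pow_mem h0 _) ((Co 2).pow_mem h1 _))

theorem b_frob (j : ℕ) : (X (0, 0) ^ 3 ^ j * X (1, 0) ^ (2 * 3 ^ j) +
    X (0, 0) ^ (2 * 3 ^ j) * X (1, 0) ^ 3 ^ j : W) =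
      (X (0, 0) * X (1, 0) ^ 2 + X (0, 0) ^ 2 * X (1, 0)) ^ 3 ^ j := by
  have : Fact (Nat.Prime 3) := ⟨by norm_num⟩
  rw [add_pow_char_pow, mul_pow, mul_pow, ← pow_mul, ← pow_mul]

theorem cob_b_zero : cob 2 (X (0, 0) * X (1, 0) ^ 2 + X (0, 0) ^ 2 * X (1, 0)) = 0 := by
  have hm : (X (0, 0) * X (1, 0) ^ 2 + X (0, 0) ^ 2 * X (1, 0) : W) ∈ Co 2 := by
    simpa using b_mem 0
  have h1 : face 1 (X (0, 0)) = X (0, 0) + X (1, 0) := by
    rw [face_one_X, sum_range_succ, sum_range_one]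
    simp [xi]
  have h2 : face 2 (X (1, 0)) = X (1, 0) + X (2, 0) := by
    have := face_eq 1 0
    rw [sum_range_succ, sum_range_one] at this
    simpa [xi] using this
  have h3 : face 2 (X (0, 0)) = X (0, 0) := face_lt 0 (by omega)
  rw [cob_two hm]
  simp only [map_add, map_mul, map_pow, face_zero_X, face_one_X_succ, h1, h2, h3]
  ring

/-- `b_j` is a cocycle -/
theorem cob_b (j : ℕ) : cob 2 (X (0, 0) ^ 3 ^ j * X (1, 0) ^ (2 * 3 ^ j) +
    X (0, 0) ^ (2 * 3 ^ j) * X (1, 0) ^ 3 ^ j) = 0 := by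
  rw [b_frob, cob_frob, cob_b_zero, zero_pow (by positivity)]

/-! ### derivatives -/

theorem pd_cube (v : ℕ × ℕ) (f : W) : pderiv v (f ^ 3) = 0 := by
  rw [pderiv_pow]
  have : ((3 : ℕ) : W) = 0 := by exact_mod_cast three_W
  rw [this]
  ring

theorem pd_pow (v : ℕ × ℕ) (f : W) (j : ℕ) : pderiv v (f ^ 3 ^ (j + 1)) = 0 := by
  rw [pow_succ, pow_mul]
  exact pd_cube v _

theorem pd_face_zero (n : ℕ) (f : W) : pderiv (0, n) (face 0 f) = 0 := by
  induction f using MvPolynomial.induction_on with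
  | C a => rw [face_C, pderiv_C]
  | add p q hp hq => rw [map_add, map_add, hp, hq, add_zero]
  | mul_X p v hp =>
    obtain ⟨t, i⟩ := v
    rw [map_mul, pderiv_mul, hp, face_zero_X, pderiv_X_of_ne (by simp)]
    simp

theorem pd_face_one_X (n t i : ℕ) : pderiv (0, n) (face 1 (X (t, i))) =
    face 1 (pderiv (0, n) (X (t, i))) := by
  rcases t with _ | t
  · rw [face_one_X, sum_range_succ', map_add, map_sum]
    have h1 : ∀ j ∈ range (i + 1), pderiv (0, n)
        (xi 0 (i + 1 - (j + 1)) ^ 3 ^ (j + 1) * xi 1 (j + 1)) = 0 := by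
      intro j _
      rw [pderiv_mul, pd_pow]
      have : pderiv (0, n) (xi 1 (j + 1)) = 0 := pderiv_X_of_ne (by simp)
      rw [this]
      simp
    rw [sum_eq_zero h1]
    simp only [xi, Nat.sub_zero, pow_zero, pow_one, mul_one, zero_add]
    rw [pderiv_X]
    by_cases h : (0, n) = ((0, i) : ℕ × ℕ)
    · rw [← h]; simp
    · simp [Ne.symm h]
  · rw [face_one_X_succ, pderiv_X_of_ne (by simp), pderiv_X_of_ne (by simp), map_zero]

theorem pd_face_one (n : ℕ) (f : W) : pderiv (0, n) (face 1 f) = face 1 (pderiv (0, n) f) := by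
  induction f using MvPolynomial.induction_on with
  | C a => rw [face_C, pderiv_C, map_zero]
  | add p q hp hq => simp only [map_add, hp, hq]
  | mul_X p v hp =>
    obtain ⟨t, i⟩ := v
    rw [map_mul, pderiv_mul, hp, pd_face_one_X, pderiv_mul, map_add, map_mul, map_mul]

theorem pd_mem {s : ℕ} (v : ℕ × ℕ) {w : W} (hw : w ∈ Co s) : pderiv v w ∈ Co s := by
  classical
  have h := hw
  unfold Co supported at h
  induction h using Algebra.adjoin_induction with
  | mem x hx =>
    obtain ⟨u, -, rfl⟩ := hx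
    rw [pderiv_X, Pi.single_apply]
    split_ifs
    · exact (Co s).one_mem
    · exact (Co s).zero_mem
  | algebraMap r =>
    change pderiv v (C r) ∈ Co s
    rw [pderiv_C]
    exact (Co s).zero_mem
  | add x y hx hy ihx ihy =>
    rw [map_add]
    exact (Co s).add_mem (ihx hx) (ihy hy)
  | mul x y hx hy ihx ihy =>
    rw [pderiv_mul]
    exact (Co s).add_mem ((Co s).mul_mem (ihx hx) hy) ((Co s).mul_mem hx (ihy hy))

/-- kill the slot `0` -/
noncomputable def z0 : W →ₐ[ZMod 3] W := aeval fun v => if v.1 = 0 then 0 else X v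

theorem z0_face_one (f : W) : z0 (face 1 f) = face 0 f := by
  refine alg_ext (z0.comp (face 1)) (face 0) (fun t i => ?_) f
  rw [AlgHom.comp_apply]
  rcases t with _ | t
  · rw [face_one_X, face_zero_X, map_sum, sum_eq_single (i + 1)]
    · simp [xi, z0]
    · intro j hj hne
      have hj' : j < i + 2 := by simpa using hj
      obtain ⟨m, hm⟩ : ∃ m, i + 1 - j = m + 1 := ⟨i - j, by omega⟩
      rw [hm, map_mul, map_pow]
      have : z0 (xi 0 (m + 1)) = 0 := by simp [xi, z0]
      rw [this, zero_pow (by positivity), zero_mul]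
    · intro hj
      simp at hj
  · rw [face_one_X_succ, face_zero_X]
    simp [z0]

theorem z0_Co {w : W} (hw : w ∈ Co 1) : ∃ c : ZMod 3, z0 w = C c := by
  refine ⟨constantCoeff w, ?_⟩
  have h1 : z0 w = (aeval (fun _ : ℕ × ℕ => (0 : W)) : W →ₐ[ZMod 3] W) w := by
    refine eq_on 1 z0 _ (fun v hv => ?_) hw
    have hv' : v.1 = 0 := by omega
    simp [z0, hv']
  rw [h1]
  exact aeval_zero' w

/-- the left derivative of a coboundary -/
theorem pd_cob {w : W} (hw : w ∈ Co 1) (n : ℕ) :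
    ∃ c : ZMod 3, z0 (pderiv (0, n) (cob 1 w)) = C c - face 0 (pderiv (0, n) w) := by
  obtain ⟨c, hc⟩ := z0_Co (pd_mem (0, n) hw)
  refine ⟨c, ?_⟩
  rw [cob_one hw, map_add, map_sub, pd_face_zero, pd_face_one, map_add, map_sub, z0_face_one, hc,
    map_zero]
  ring

theorem pd_const {w : W} (hw : w ∈ Co 1) (n : ℕ) (h : pderiv (0, n) (cob 1 w) = 0) :
    ∃ c : ZMod 3, pderiv (0, n) w = C c := by
  obtain ⟨c, hc⟩ := pd_cob hw n
  refine ⟨c, face_zero_inj ?_⟩
  rw [h, map_zero] at hc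
  rw [face_C]
  exact (sub_eq_zero.1 hc.symm).symm

/-- `b_0` is not a coboundary -/
theorem not_Bd_b_zero : ¬ Bd 1 (X (0, 0) * X (1, 0) ^ 2 + X (0, 0) ^ 2 * X (1, 0)) := by
  rintro ⟨w, hw, h⟩
  obtain ⟨c, hc⟩ := pd_cob hw 0
  rw [h] at hc
  have h1 : z0 (pderiv (0, 0) (X (0, 0) * X (1, 0) ^ 2 + X (0, 0) ^ 2 * X (1, 0) : W)) =
      X (1, 0) ^ 2 := by
    have e1 : pderiv (0, 0) (X (1, 0) : W) = 0 := pderiv_X_of_ne (by simp)
    rw [map_add, pderiv_mul, pderiv_mul, pderiv_pow, pderiv_pow, pderiv_X_self, e1]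
    simp [z0]
  rw [h1] at hc
  have h2 : face 0 (pderiv (0, 0) w) = face 0 (C c - X (0, 0) ^ 2) := by
    rw [map_sub, map_pow, face_C, face_zero_X, hc]
    ring
  have h3 := face_zero_inj h2
  have h4 := congrArg (coeff (Finsupp.single ((0, 0) : ℕ × ℕ) 2)) h3
  rw [coeff_pderiv, coeff_sub, coeff_X_pow, coeff_C] at h4
  have h5 : ¬ ((0 : ℕ × ℕ →₀ ℕ) = Finsupp.single ((0, 0) : ℕ × ℕ) 2) := fun he => by
    have := DFunLike.congr_fun he ((0, 0) : ℕ × ℕ)
    simp at this
  rw [if_neg h5, if_pos rfl, Finsupp.single_eq_same] at h4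
  have h6 : ((2 : ℕ) : ZMod 3) + 1 = 0 := by decide
  rw [h6, mul_zero, zero_sub] at h4
  exact absurd h4 (by decide)

/-- a polynomial without derivatives is a cube -/
theorem exists_cube {f : W} (hf : f ∈ Co 1) (h : ∀ v, pderiv v f = 0) : ∃ u ∈ Co 1, u ^ 3 = f := by
  classical
  have : Fact (Nat.Prime 3) := ⟨by norm_num⟩
  have hdvd : ∀ m ∈ f.support, ∀ v, 3 ∣ m v := by
    intro m hm v
    rcases Nat.eq_zero_or_pos (m v) with h0 | h0
    · rw [h0]; exact dvd_zero 3
    obtain ⟨m', hm'⟩ : ∃ m' : ℕ × ℕ →₀ ℕ, m' + Finsupp.single v 1 = m :=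
      ⟨m - Finsupp.single v 1, tsub_add_cancel_of_le (Finsupp.single_le_iff.2 h0)⟩
    have h1 := congrArg (coeff m') (h v)
    rw [coeff_pderiv, coeff_zero, hm'] at h1
    have h3 : ((m' v : ℕ) : ZMod 3) + 1 = (m v : ℕ) := by
      rw [← hm', Finsupp.add_apply, Finsupp.single_eq_same]
      push_cast
      ring
    rw [h3] at h1
    have h4 := (mul_eq_zero.1 h1).resolve_left (mem_support_iff.1 hm)
    exact (ZMod.natCast_eq_zero_iff _ _).1 h4
  refine ⟨∑ m ∈ f.support, monomial (m.mapRange (· / 3) (Nat.zero_div 3)) (coeff m f), ?_, ?_⟩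
  · refine (Co 1).sum_mem fun m hm => ?_
    unfold Co
    rw [mem_supported, vars_monomial (mem_support_iff.1 hm)]
    intro v hv
    have hv' : m.mapRange (· / 3) (Nat.zero_div 3) v ≠ 0 := by simpa using hv
    have hmv : m v ≠ 0 := by
      intro h0
      apply hv'
      simp [h0]
    have h5 : v ∈ f.vars := by
      rw [mem_vars_iff_mem_support]
      exact ⟨m, hm, by simpa using hmv⟩
    have h6 := hf
    unfold Co at h6
    exact mem_supported.1 h6 h5
  · rw [sum_pow_char 3]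
    conv_rhs => rw [f.as_sum]
    refine sum_congr rfl fun m hm => ?_
    have h7 : 3 • m.mapRange (· / 3) (Nat.zero_div 3) = m := by
      refine Finsupp.ext fun v => ?_
      rw [Finsupp.smul_apply, Finsupp.mapRange_apply, smul_eq_mul]
      have := hdvd m hm v
      omega
    rw [monomial_pow, ZMod.pow_card, h7]

theorem pd_one_cob (n : ℕ) : pderiv (1, 0) (cob 1 (X (0, n))) =
    if n = 0 then 0 else -(xi 0 n ^ 3) := by
  rw [cob_one (X_mem n (by omega)), face_zero_X, face_one_X, map_add, map_sub, map_sum,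
    sum_eq_single 1]
  · have h1 : pderiv (1, 0) (X (0, n) : W) = 0 := pderiv_X_of_ne (by simp)
    have h2 : pderiv (1, 0) (xi 0 (n + 1 - 1) ^ 3 ^ 1 * xi 1 1 : W) = xi 0 n ^ 3 := by
      rw [Nat.add_sub_cancel, pow_one, pderiv_mul, pd_cube]
      change _ + _ * pderiv (1, 0) (X (1, 0) : W) = _
      rw [pderiv_X_self]
      ring
    rw [h1, h2]
    rcases n with _ | n
    · change pderiv (1, 0) (X (1, 0) : W) - _ + 0 = _
      rw [pderiv_X_self]
      simp [xi]
    · have h3 : pderiv (1, 0) (X (0 + 1, n + 1) : W) = 0 := pderiv_X_of_ne (by simp)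
      rw [h3]
      simp
  · intro j hj hne
    rw [pderiv_mul, pderiv_pow]
    have h1 : pderiv (1, 0) (xi 0 (n + 1 - j) : W) = 0 := by
      rcases n + 1 - j with _ | m
      · exact pderiv_one
      · exact pderiv_X_of_ne (by simp)
    have h2 : pderiv (1, 0) (xi 1 j : W) = 0 := by
      rcases j with _ | m
      · exact pderiv_one
      · refine pderiv_X_of_ne ?_
        simp
        omega
    rw [h1, h2]
    simp
  · intro hj
    simp at hj

/-- evaluation at `X (0, n) = 1`, all other variables `0` -/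
noncomputable def ev (n : ℕ) : W →ₐ[ZMod 3] ZMod 3 := aeval fun v => if v = (0, n) then 1 else 0

theorem cob_sum (s : ℕ) {ι : Type} (t : Finset ι) (f : ι → W) :
    cob s (∑ i ∈ t, f i) = ∑ i ∈ t, cob s (f i) := by
  classical
  induction t using Finset.induction_on with
  | empty => simp [cob]
  | insert a t ha ih => rw [sum_insert ha, sum_insert ha, cob_add, ih]

theorem cob_C_mul (s : ℕ) (c : ZMod 3) (f : W) : cob s (C c * f) = C c * cob s f := by
  unfold cob
  rw [mul_sum]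
  refine sum_congr rfl fun k _ => ?_
  rw [map_mul, face_C]
  ring

theorem pow_three_inj {f g : W} (h : f ^ 3 = g ^ 3) : f = g := by
  have : Fact (Nat.Prime 3) := ⟨by norm_num⟩
  exact frobenius_inj W 3 h

/-- descent: a cube which is a coboundary is the cube of a coboundary -/
theorem descend {w g : W} (hw : w ∈ Co 1) (h : cob 1 w = g ^ 3) : ∃ u ∈ Co 1, cob 1 u = g := by
  classical
  have : Fact (Nat.Prime 3) := ⟨by norm_num⟩
  have h1 : ∀ n, ∃ c : ZMod 3, pderiv (0, n) w = C c := fun n =>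
    pd_const hw n (by rw [h, pd_cube])
  choose κ hκ using h1
  obtain ⟨N, hN⟩ : ∃ N : ℕ, ∀ n, N ≤ n → κ n = 0 := by
    refine ⟨(w.vars.sup fun v => v.2) + 1, fun n hn => ?_⟩
    have h2 : ((0, n) : ℕ × ℕ) ∉ w.vars := by
      intro hv
      have := Finset.le_sup (f := fun v : ℕ × ℕ => v.2) hv
      simp only at this
      omega
    have h3 := hκ n
    rw [pderiv_eq_zero_of_notMem_vars h2] at h3
    exact (C_eq_zero.1 h3.symm)
  set S : W := ∑ n ∈ range N, C (κ n) * X (0, n) with hS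
  have hSm : S ∈ Co 1 := (Co 1).sum_mem fun n _ =>
    (Co 1).mul_mem ((Co 1).algebraMap_mem (κ n)) (X_mem n (by omega))
  obtain ⟨u, hu, hu3⟩ := exists_cube (f := w - S) ((Co 1).sub_mem hw hSm) (by
    rintro ⟨t, i⟩
    rcases t with _ | t
    · rw [map_sub, hκ, hS, map_sum]
      have h4 : ∀ n ∈ range N, pderiv (0, i) (C (κ n) * X (0, n) : W) =
          if n = i then C (κ n) else 0 := by
        intro n _
        rw [pderiv_C_mul, pderiv_X, Pi.single_apply]
        by_cases hni : n = i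
        · simp [hni]
        · have : ((0, n) : ℕ × ℕ) ≠ (0, i) := by simp [hni]
          simp [hni]
      rw [sum_congr rfl h4, sum_ite_eq' (range N) i fun n => (C (κ n) : W)]
      split_ifs with hi
      · ring
      · rw [hN i (by simpa using hi)]
        simp
    · refine pderiv_eq_zero_of_notMem_vars fun hv => ?_
      have h5 := (Co 1).sub_mem hw hSm
      unfold Co at h5
      have h6 : ((t + 1, i) : ℕ × ℕ).1 < 1 := mem_supported.1 h5 hv
      simp at h6)
  have hwS : w = u ^ 3 + S := by rw [hu3]; ring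
  have hcS : cob 1 S = ∑ n ∈ range N, C (κ n) * cob 1 (X (0, n)) := by
    rw [hS, cob_sum]
    exact sum_congr rfl fun n _ => cob_C_mul 1 _ _
  have hcw : cob 1 S = (g - cob 1 u) ^ 3 := by
    rw [sub_pow_char, ← h, hwS, cob_add, cob_pow]
    ring
  have hpd : pderiv (1, 0) (cob 1 S) = 0 := by rw [hcw, pd_cube]
  have hκ0 : ∀ n ∈ range N, n ≠ 0 → κ n = 0 := by
    intro n hn hn0
    obtain ⟨k, rfl⟩ := Nat.exists_eq_succ_of_ne_zero hn0
    rw [hcS, map_sum] at hpd
    have h7 := congrArg (ev k) hpd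
    rw [map_sum, map_zero, sum_eq_single (k + 1)] at h7
    · rw [pderiv_C_mul, pd_one_cob, if_neg (by omega)] at h7
      simpa [ev, xi] using h7
    · intro m _ hm
      rw [pderiv_C_mul, pd_one_cob]
      rcases m with _ | m
      · simp
      · have : ((0, m) : ℕ × ℕ) ≠ (0, k) := by
          intro he
          apply hm
          simp at he
          omega
        simp [ev, xi, this]
    · intro hn'
      exact absurd hn hn'
  have hcS0 : cob 1 S = 0 := by
    rw [hcS]
    refine sum_eq_zero fun n hn => ?_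
    rcases Nat.eq_zero_or_pos n with rfl | h0
    · rw [cob_one_X_zero, mul_zero]
    · rw [hκ0 n hn h0.ne', map_zero, zero_mul]
  refine ⟨u, hu, (pow_three_inj ?_)⟩
  rw [← h, hwS, cob_add, hcS0, add_zero, cob_pow]

/-- `b_j` is not a coboundary -/
theorem not_Bd_b (j : ℕ) : ¬ Bd 1 (X (0, 0) ^ 3 ^ j * X (1, 0) ^ (2 * 3 ^ j) +
    X (0, 0) ^ (2 * 3 ^ j) * X (1, 0) ^ 3 ^ j) := by
  rw [b_frob]
  induction j with
  | zero => simpa using not_Bd_b_zero
  | succ j ih =>
    rintro ⟨w, hw, h⟩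
    rw [pow_succ (3 : ℕ) j, pow_mul] at h
    obtain ⟨u, hu, hu1⟩ := descend hw h
    exact ih ⟨u, hu, hu1⟩

/-- `h_j` is not a coboundary -/
theorem not_Bd_h (j : ℕ) : ¬ Bd 0 ((X (0, 0) : W) ^ 3 ^ j) := by
  rintro ⟨w, hw, h⟩
  have h1 : cob 0 w = 0 := by
    unfold cob
    rw [sum_range_succ, sum_range_one, face_fix (k := 1) (by omega) hw]
    have h2 : face 0 w = w := eq_on 0 (face 0) (AlgHom.id _ _) (fun v hv => by omega) hw
    rw [h2]
    ring
  rw [h1] at h
  exact pow_ne_zero _ (X_ne_zero _) h.symm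

end Vale.Agent.P236.R2.H489
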