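import Vale.Agent.P236.R2.H383.CX
import Vale.Agent.P236.R2.H489.NonZero

/-! `h_0 b_0^3` is not a coboundary: the functional is built from the partial derivatives in the
variables `X (t, 0)`; these operators respect the ideal of the cubes of the variables. -/

namespace Vale.Agent.P236.R2.H489

open MvPolynomial Finset Vale.Agent.P236.R2.H383

/-- the derivative in `ξ_1` of the slot `t` -/
noncomputable def dd (t : ℕ) (f : W) : W := pderiv (t, 0) f

theorem dd_add (t : ℕ) (f g : W) : dd t (f + g) = dd t f + dd t g := map_add _ _ _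
theorem dd_sub (t : ℕ) (f g : W) : dd t (f - g) = dd t f - dd t g := map_sub _ _ _
theorem dd_neg (t : ℕ) (f : W) : dd t (-f) = -dd t f := map_neg _ _
theorem dd_zero (t : ℕ) : dd t 0 = 0 := map_zero _
theorem dd_C (t : ℕ) (c : ZMod 3) : dd t (C c) = 0 := pderiv_C
theorem dd_mul (t : ℕ) (f g : W) : dd t (f * g) = dd t f * g + f * dd t g := pderiv_mul
theorem dd_X (t s i : ℕ) : dd t (X (s, i)) = if s = t ∧ i = 0 then 1 else 0 := by
  unfold dd
  rw [pderiv_X, Pi.single_apply]
  by_cases h : s = t ∧ i = 0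
  · rw [if_pos h, if_pos (by rw [h.1, h.2])]
  · rw [if_neg h, if_neg]
    intro he
    apply h
    simpa [Prod.ext_iff] using he

theorem dd_dd_X (t s : ℕ) (v : ℕ × ℕ) : dd t (dd s (X v)) = 0 := by
  obtain ⟨a, i⟩ := v
  rw [dd_X]
  split_ifs
  · exact pderiv_one
  · exact dd_zero t

theorem dd_comm (s t : ℕ) (f : W) : dd s (dd t f) = dd t (dd s f) := by
  induction f using MvPolynomial.induction_on with
  | C a => rw [dd_C, dd_C, dd_zero, dd_zero]
  | add p q hp hq => simp only [dd_add, hp, hq]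
  | mul_X p v hp =>
    simp only [dd_mul, dd_add, hp, dd_dd_X]
    ring

theorem dd_three (t : ℕ) (f : W) : dd t (dd t (dd t f)) = 0 := by
  induction f using MvPolynomial.induction_on with
  | C a => rw [dd_C, dd_zero, dd_zero]
  | add p q hp hq => rw [dd_add, dd_add, dd_add, hp, hq, add_zero]
  | mul_X p v hp =>
    simp only [dd_mul, dd_add, hp, dd_dd_X, dd_zero]
    linear_combination (dd t (dd t p) * dd t (X v)) * three_W

/-- the ideal of the cubes of the variables -/
noncomputable def J : Ideal W := Ideal.span (Set.range fun v => X v ^ 3)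

theorem cube_mem (v : ℕ × ℕ) : (X v ^ 3 : W) ∈ J := Ideal.subset_span ⟨v, rfl⟩

theorem dd_J (t : ℕ) {f : W} (hf : f ∈ J) : dd t f ∈ J := by
  unfold J at hf
  induction hf using Submodule.span_induction with
  | mem x hx =>
    obtain ⟨v, rfl⟩ := hx
    have : dd t (X v ^ 3) = 0 := pd_cube _ _
    rw [this]
    exact J.zero_mem
  | zero => rw [dd_zero]; exact J.zero_mem
  | add x y hx hy ihx ihy => rw [dd_add]; exact J.add_mem ihx ihy
  | smul a x hx ih =>
    rw [smul_eq_mul, dd_mul]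
    exact J.add_mem (J.mul_mem_left _ hx) (J.mul_mem_left _ ih)

theorem const_J {f : W} (hf : f ∈ J) : constantCoeff f = 0 := by
  have h : J ≤ RingHom.ker (constantCoeff : W →+* ZMod 3) := by
    unfold J
    rw [Ideal.span_le]
    rintro _ ⟨v, rfl⟩
    change constantCoeff (X v ^ 3 : W) = 0
    rw [map_pow, constantCoeff_X, zero_pow (by norm_num)]
  exact h hf

theorem key_X (t s : ℕ) (hs : s = t ∨ s = t + 1) (v : ℕ × ℕ) :
    dd s (face (t + 1) (X v)) - face (t + 1) (dd t (X v)) ∈ J := by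
  obtain ⟨a, i⟩ := v
  rcases lt_trichotomy a t with h | h | h
  · rw [face_lt i (by omega), dd_X, dd_X, if_neg (by omega), if_neg (by omega), map_zero, sub_zero]
    exact J.zero_mem
  · subst h
    have e : dd s (face (a + 1) (X (a, i))) =
        xi a i ^ 3 * dd s (X (a + 1, 0)) + dd s (X (a, i)) := by
      rw [face_eq, sum_range_succ', sum_range_succ', dd_add, dd_add]
      have h0 : dd s (∑ j ∈ range i, xi a (i + 1 - (j + 1 + 1)) ^ 3 ^ (j + 1 + 1) *
          xi (a + 1) (j + 1 + 1)) = 0 := by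
        unfold dd
        rw [map_sum]
        refine sum_eq_zero fun j _ => ?_
        rw [pderiv_mul, pd_pow]
        change _ + _ * pderiv (s, 0) (X (a + 1, j + 1) : W) = 0
        rw [pderiv_X_of_ne (by simp)]
        ring
      rw [h0]
      have h1 : dd s (xi a (i + 1 - (0 + 1)) ^ 3 ^ (0 + 1) * xi (a + 1) (0 + 1)) =
          xi a i ^ 3 * dd s (X (a + 1, 0)) := by
        have e3 : (3 : ℕ) ^ (0 + 1) = 3 := rfl
        have e4 : i + 1 - (0 + 1) = i := by omega
        rw [dd_mul, e3, e4]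
        have : dd s (xi a i ^ 3) = 0 := pd_cube _ _
        rw [this, zero_mul, zero_add]
        rfl
      have h2 : dd s (xi a (i + 1 - 0) ^ 3 ^ 0 * xi (a + 1) 0) = dd s (X (a, i)) := by
        rw [pow_zero, pow_one]
        change dd s (X (a, i) * 1) = _
        rw [mul_one]
      rw [h1, h2]
      ring
    rw [e]
    rcases hs with rfl | rfl
    · rw [dd_X s (s + 1) 0, if_neg (by omega), dd_X]
      split_ifs
      · rw [map_one, mul_zero, zero_add, sub_self]; exact J.zero_mem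
      · rw [map_zero, mul_zero, zero_add, sub_self]; exact J.zero_mem
    · rw [dd_X (a + 1) (a + 1) 0, if_pos ⟨rfl, rfl⟩, dd_X (a + 1) a i, if_neg (by omega), dd_X]
      rcases i with _ | m
      · rw [if_pos ⟨rfl, rfl⟩, map_one]
        change (1 : W) ^ 3 * 1 + 0 - 1 ∈ J
        have : (1 : W) ^ 3 * 1 + 0 - 1 = 0 := by ring
        rw [this]
        exact J.zero_mem
      · rw [if_neg (by omega), map_zero]
        change (X (a, m) : W) ^ 3 * 1 + 0 - 0 ∈ J
        have : (X (a, m) : W) ^ 3 * 1 + 0 - 0 = X (a, m) ^ 3 := by ring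
        rw [this]
        exact cube_mem _
  · rw [face_gt i (by omega), dd_X, dd_X, if_neg (by omega), if_neg (by omega), map_zero, sub_zero]
    exact J.zero_mem

theorem key (t s : ℕ) (hs : s = t ∨ s = t + 1) (f : W) :
    dd s (face (t + 1) f) - face (t + 1) (dd t f) ∈ J := by
  induction f using MvPolynomial.induction_on with
  | C a => rw [face_C, dd_C, dd_C, map_zero, sub_zero]; exact J.zero_mem
  | add p q hp hq =>
    rw [map_add, dd_add, dd_add, map_add, add_sub_add_comm]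
    exact J.add_mem hp hq
  | mul_X p v hp =>
    have e : dd s (face (t + 1) (p * X v)) - face (t + 1) (dd t (p * X v)) =
        face (t + 1) (X v) * (dd s (face (t + 1) p) - face (t + 1) (dd t p)) +
        face (t + 1) p * (dd s (face (t + 1) (X v)) - face (t + 1) (dd t (X v))) := by
      rw [map_mul, dd_mul, dd_mul, map_add, map_mul, map_mul]
      ring
    rw [e]
    exact J.add_mem (J.mul_mem_left _ hp) (J.mul_mem_left _ (key_X t s hs v))

theorem step {t s : ℕ} (hs : s = t ∨ s = t + 1) {g f : W} (h : g - face (t + 1) f ∈ J) :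
    dd s g - face (t + 1) (dd t f) ∈ J := by
  have e : dd s g - face (t + 1) (dd t f) =
      dd s (g - face (t + 1) f) + (dd s (face (t + 1) f) - face (t + 1) (dd t f)) := by
    rw [dd_sub]
    ring
  rw [e]
  exact J.add_mem (dd_J s h) (key t s hs f)

theorem triple {t a b c : ℕ} (ha : a = t ∨ a = t + 1) (hb : b = t ∨ b = t + 1)
    (hc : c = t ∨ c = t + 1) (f : W) : dd a (dd b (dd c (face (t + 1) f))) ∈ J := by
  have h := step ha (step hb (step hc (g := face (t + 1) f) (f := f) (by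
    rw [sub_self]; exact J.zero_mem)))
  rwa [dd_three, map_zero, sub_zero] at h

theorem fold_J (l : List ℕ) {f : W} (hf : f ∈ J) : l.foldr dd f ∈ J := by
  induction l with
  | nil => exact hf
  | cons a l ih => exact dd_J a ih

theorem fold_add (l : List ℕ) (f g : W) : l.foldr dd (f + g) = l.foldr dd f + l.foldr dd g := by
  induction l with
  | nil => rfl
  | cons a l ih => simp only [List.foldr_cons, ih, dd_add]

theorem fold_neg (l : List ℕ) (f : W) : l.foldr dd (-f) = -l.foldr dd f := by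
  induction l with
  | nil => rfl
  | cons a l ih => simp only [List.foldr_cons, ih, dd_neg]

theorem fold_perm {l m : List ℕ} (h : l.Perm m) (f : W) : l.foldr dd f = m.foldr dd f := by
  have : LeftCommutative dd := ⟨dd_comm⟩
  exact h.foldr_eq f

/-- the polynomials killed by the ten derivatives modulo cubes -/
noncomputable def K (l : List ℕ) : AddSubgroup W where
  carrier := {f | l.foldr dd f ∈ J}
  zero_mem' := fold_J l J.zero_mem
  add_mem' {f g} hf hg := by
    change l.foldr dd (f + g) ∈ J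
    rw [fold_add]
    exact J.add_mem hf hg
  neg_mem' {f} hf := by
    change l.foldr dd (-f) ∈ J
    rw [fold_neg]
    exact J.neg_mem hf

/-- the exponents `1, 2, 1, 2, 1, 2, 1` -/
def L : List ℕ := [0, 1, 1, 2, 3, 3, 4, 5, 5, 6]

theorem face_K (t a b c : ℕ) (r : List ℕ) (hp : L.Perm (r ++ [a, b, c]))
    (ha : a = t ∨ a = t + 1) (hb : b = t ∨ b = t + 1)
    (hc : c = t ∨ c = t + 1) (f : W) : face (t + 1) f ∈ K L := by
  change L.foldr dd _ ∈ J
  rw [fold_perm hp, List.foldr_append]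
  exact fold_J r (triple ha hb hc f)

theorem cob_K {w : W} (hw : w ∈ Co 6) : cob 6 w ∈ K L := by
  have h0 : face 0 w ∈ K L := by
    change L.foldr dd _ ∈ J
    have hp : L.Perm ([1, 1, 2, 3, 3, 4, 5, 5, 6] ++ [0]) := by decide
    rw [fold_perm hp, List.foldr_append]
    refine fold_J _ ?_
    change dd 0 (face 0 w) ∈ J
    have : dd 0 (face 0 w) = 0 := pd_face_zero 0 w
    rw [this]
    exact J.zero_mem
  have h7 : face 7 w ∈ K L := by
    rw [face_fix (by omega) hw]
    change L.foldr dd _ ∈ J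
    have hp : L.Perm ([0, 1, 1, 2, 3, 3, 4, 5, 5] ++ [6]) := by decide
    rw [fold_perm hp, List.foldr_append]
    refine fold_J _ ?_
    change dd 6 w ∈ J
    have : dd 6 w = 0 := by
      refine pderiv_eq_zero_of_notMem_vars fun hv => ?_
      unfold Co at hw
      have h6 : ((6, 0) : ℕ × ℕ).1 < 6 := mem_supported.1 hw hv
      simp at h6
    rw [this]
    exact J.zero_mem
  have h : ∀ k ∈ range (6 + 2), face k w ∈ K L := by
    intro k hk
    have hk' : k < 8 := by simpa using hk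
    interval_cases k
    · exact h0
    · exact face_K 0 0 1 1 [2, 3, 3, 4, 5, 5, 6] (by decide) (by omega) (by omega) (by omega) w
    · exact face_K 1 1 1 2 [0, 3, 3, 4, 5, 5, 6] (by decide) (by omega) (by omega) (by omega) w
    · exact face_K 2 2 3 3 [0, 1, 1, 4, 5, 5, 6] (by decide) (by omega) (by omega) (by omega) w
    · exact face_K 3 3 3 4 [0, 1, 1, 2, 5, 5, 6] (by decide) (by omega) (by omega) (by omega) w
    · exact face_K 4 4 5 5 [0, 1, 1, 2, 3, 3, 6] (by decide) (by omega) (by omega) (by omega) w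
    · exact face_K 5 5 5 6 [0, 1, 1, 2, 3, 3, 4] (by decide) (by omega) (by omega) (by omega) w
    · exact h7
  unfold cob
  refine (K L).sum_mem fun k hk => ?_
  rcases neg_one_pow_eq_or W k with e | e
  · rw [e, one_mul]; exact h k hk
  · rw [e, neg_one_mul]; exact (K L).neg_mem (h k hk)

theorem two_step (t : ℕ) (A : W) (h5 : dd t A = 0) (h6 : dd (t + 1) A = 0) :
    dd t (dd t (dd (t + 1) (A * (X (t, 0) * X (t + 1, 0) ^ 2 + X (t, 0) ^ 2 * X (t + 1, 0))))) =
      2 * A := by
  have x1 : dd t (X (t, 0)) = 1 := by rw [dd_X]; simp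
  have x2 : dd t (X (t + 1, 0)) = 0 := by rw [dd_X]; simp
  have x3 : dd (t + 1) (X (t, 0)) = 0 := by rw [dd_X]; simp
  have x4 : dd (t + 1) (X (t + 1, 0)) = 1 := by rw [dd_X]; simp
  simp only [pow_two, dd_mul, dd_add, h5, h6, x1, x2, x3, x4, mul_zero, zero_mul, add_zero,
    zero_add, mul_one, one_mul]
  ring

/-- `b_j` is not a coboundary -/
theorem not_bd_b (j : ℕ) : ¬ Bd 1 (b j) := not_Bd_b j

/-- `h_j` is not a coboundary -/
theorem not_bd_h (j : ℕ) : ¬ Bd 0 (h j) := not_Bd_h j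

/-- `h_0 b_0^3` is not a coboundary -/
theorem not_bd_h0b0 : ¬ Bd 6 (h 0 * sh 1 (b 0) * sh 3 (b 0) * sh 5 (b 0)) := by
  rintro ⟨w, hw, e⟩
  have h1 := cob_K hw
  rw [e] at h1
  have h2 : L.foldr dd (h 0 * sh 1 (b 0) * sh 3 (b 0) * sh 5 (b 0)) ∈ J := h1
  have e1 : h 0 * sh 1 (b 0) * sh 3 (b 0) * sh 5 (b 0) =
      X (0, 0) * (X (1, 0) * X (2, 0) ^ 2 + X (1, 0) ^ 2 * X (2, 0)) *
        (X (3, 0) * X (4, 0) ^ 2 + X (3, 0) ^ 2 * X (4, 0)) *
        (X (5, 0) * X (6, 0) ^ 2 + X (5, 0) ^ 2 * X (6, 0)) := by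
    simp only [h_zero, b_zero, fB0, map_add, map_mul, map_pow, sh_X]
  rw [e1] at h2
  have h2 : dd 0 (dd 1 (dd 1 (dd (1 + 1) (dd 3 (dd 3 (dd (3 + 1) (dd 5 (dd 5 (dd (5 + 1)
      (X (0, 0) * (X (1, 0) * X (2, 0) ^ 2 + X (1, 0) ^ 2 * X (2, 0)) *
        (X (3, 0) * X (4, 0) ^ 2 + X (3, 0) ^ 2 * X (4, 0)) *
        (X (5, 0) * X (5 + 1, 0) ^ 2 + X (5, 0) ^ 2 * X (5 + 1, 0)))))))))))) ∈ J := h2
  have hX : ∀ s t : ℕ, t ≠ s → dd s (X (t, 0)) = 0 := fun s t ht => by
    rw [dd_X, if_neg (by omega)]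
  have s1 := two_step 5 (X (0, 0) * (X (1, 0) * X (2, 0) ^ 2 + X (1, 0) ^ 2 * X (2, 0)) *
        (X (3, 0) * X (4, 0) ^ 2 + X (3, 0) ^ 2 * X (4, 0)))
    (by simp only [pow_two, dd_mul, dd_add, hX 5 0 (by omega), hX 5 1 (by omega),
          hX 5 2 (by omega), hX 5 3 (by omega), hX 5 4 (by omega), mul_zero, zero_mul, add_zero])
    (by simp only [pow_two, dd_mul, dd_add, hX 6 0 (by omega), hX 6 1 (by omega),
          hX 6 2 (by omega), hX 6 3 (by omega), hX 6 4 (by omega), mul_zero, zero_mul, add_zero])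
  have s2 := two_step 3 (2 * (X (0, 0) * (X (1, 0) * X (2, 0) ^ 2 + X (1, 0) ^ 2 * X (2, 0))))
    (by
      have h2 : dd 3 (2 : W) = 0 := dd_C 3 2
      simp only [pow_two, dd_mul, dd_add, hX 3 0 (by omega), hX 3 1 (by omega),
          hX 3 2 (by omega), mul_zero, zero_mul, add_zero, h2])
    (by
      have h2 : dd (3 + 1) (2 : W) = 0 := dd_C _ 2
      simp only [pow_two, dd_mul, dd_add, hX (3 + 1) 0 (by omega), hX (3 + 1) 1 (by omega),
          hX (3 + 1) 2 (by omega), mul_zero, zero_mul, add_zero, h2])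
  have s3 := two_step 1 (2 * (2 * X (0, 0)))
    (by
      have h2 : dd 1 (2 : W) = 0 := dd_C 1 2
      simp only [dd_mul, hX 1 0 (by omega), mul_zero, zero_mul, add_zero, h2])
    (by
      have h2 : dd (1 + 1) (2 : W) = 0 := dd_C _ 2
      simp only [dd_mul, hX (1 + 1) 0 (by omega), mul_zero, zero_mul, add_zero, h2])
  have q1 : (2 : W) * (X (0, 0) * (X (1, 0) * X (2, 0) ^ 2 + X (1, 0) ^ 2 * X (2, 0)) *
        (X (3, 0) * X (4, 0) ^ 2 + X (3, 0) ^ 2 * X (4, 0))) =
      2 * (X (0, 0) * (X (1, 0) * X (2, 0) ^ 2 + X (1, 0) ^ 2 * X (2, 0))) *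
        (X (3, 0) * X (3 + 1, 0) ^ 2 + X (3, 0) ^ 2 * X (3 + 1, 0)) := by
    ring
  have q2 : (2 : W) * (2 * (X (0, 0) * (X (1, 0) * X (2, 0) ^ 2 + X (1, 0) ^ 2 * X (2, 0)))) =
      2 * (2 * X (0, 0)) * (X (1, 0) * X (1 + 1, 0) ^ 2 + X (1, 0) ^ 2 * X (1 + 1, 0)) := by
    ring
  rw [s1, q1, s2, q2, s3] at h2
  have h3 := const_J h2
  have q3 : dd 0 (2 * (2 * (2 * X (0, 0)))) = C 8 := by
    have h2 : dd 0 (2 : W) = 0 := dd_C 0 2
    have x1 : dd 0 (X (0, 0)) = 1 := by rw [dd_X]; simp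
    have h8 : (C 8 : W) = 8 := map_ofNat C 8
    simp only [dd_mul, h2, x1, zero_mul, zero_add, h8]
    ring
  rw [q3, constantCoeff_C] at h3
  exact absurd h3 (by decide)

end Vale.Agent.P236.R2.H489
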